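import Vale.Agent.P032.S5.H94.Hull

/-!
# P032: the letters on the two sides of an end of exact arcs at a two-pair centre
-/

open Set Filter Topology Metric

noncomputable section

namespace Vale.Agent.P032.Six

/-- points of the circle near `y` are `z + (y - z) cis s`, `s` small -/
theorem ev_sphere {z y : ℂ} (hy : dist y z = 1) {ε : ℝ} (hε : 0 < ε) :
    ∀ᶠ q in 𝓝 y, dist q z = 1 → ∃ s : ℝ, |s| < ε ∧ q = z + (y - z) * cis s := by
  have hyn : ‖y - z‖ = 1 := by rw [← dist_eq_norm]; exact hy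
  have hy0 : y - z ≠ 0 := by
    intro h0
    rw [h0, norm_zero] at hyn
    exact zero_ne_one hyn
  have hcont : ContinuousAt (fun q : ℂ => Complex.arg ((q - z) / (y - z))) y := by
    refine ContinuousAt.comp (g := Complex.arg) (f := fun q : ℂ => (q - z) / (y - z)) ?_ ?_
    · rw [div_self hy0]
      exact Complex.continuousAt_arg (by simp [Complex.slitPlane])
    · fun_prop
  have h0 : Complex.arg ((y - z) / (y - z)) = 0 := by rw [div_self hy0, Complex.arg_one]
  have hev := hcont.eventually (Metric.ball_mem_nhds _ hε)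
  filter_upwards [hev] with q hq hqz
  simp only [h0, Real.dist_eq, sub_zero] at hq
  refine ⟨_, hq, ?_⟩
  have hn : ‖(q - z) / (y - z)‖ = 1 := by rw [norm_div, hyn, ← dist_eq_norm, hqz, div_one]
  have h1 := Complex.norm_mul_exp_arg_mul_I ((q - z) / (y - z))
  rw [hn, Complex.ofReal_one, one_mul] at h1
  unfold cis
  rw [h1, mul_div_cancel₀ _ hy0]
  ring

theorem cis_add94 (s t : ℝ) : cis (s + t) = cis s * cis t := by
  unfold cis
  rw [← Complex.exp_add]
  congr 1
  push_cast
  ring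

/-- the cross product of two directions -/
theorem cr_cis_cis {z v : ℂ} (hv : dist v z = 1) (s t : ℝ) :
    cr ((v - z) * cis s) ((v - z) * cis t) = Real.sin (t - s) := by
  have hvn : ‖v - z‖ = 1 := by rw [← dist_eq_norm]; exact hv
  have := ip_sq hvn
  rw [Real.sin_sub]
  unfold cr
  simp only [Complex.mul_re, Complex.mul_im, cis_re, cis_im]
  linear_combination (Real.sin t * Real.cos s - Real.cos t * Real.sin s) * this

variable {k : ℕ} {U : Fin k → Set ℂ} {T : ℂ → Set (Fin k)}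

theorem tendsto_pt (z v : ℂ) (τ : ℝ) :
    Tendsto (fun t : ℝ => z + (v - z) * cis (τ * t)) (𝓝[>] 0) (𝓝 v) := by
  have : Continuous fun t : ℝ => z + (v - z) * cis (τ * t) :=
    continuous_const.add (continuous_const.mul (continuous_cis.comp
      (continuous_const.mul continuous_id)))
  have h2 := this.tendsto 0
  have e : z + (v - z) * cis (τ * 0) = v := by simp [cis]
  rw [e] at h2
  exact h2.mono_left nhdsWithin_le_nhds

/-- **the side of the arcs**: if exact `ab`-points accumulate at `v` from one side, all points of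
`S(z)` near `v` on this side have neither `c` nor `d` -/
theorem Irr.side_near (h : Irr U T) {z v : ℂ} {a b c d : Fin k} (hz : DPt T z a b c d)
    (hv : dist v z = 1) {τ : ℝ} (hτ : τ = 1 ∨ τ = -1)
    (hA : ∃ᶠ t : ℝ in 𝓝[>] 0, T (z + (v - z) * cis (τ * t)) = {a, b}) :
    ∀ᶠ t : ℝ in 𝓝[>] 0, c ∉ Pal U (z + (v - z) * cis (τ * t)) ∧
      d ∉ Pal U (z + (v - z) * cis (τ * t)) := by
  have hvn : ‖v - z‖ = 1 := by rw [← dist_eq_norm]; exact hv
  have hon : ∀ t : ℝ, dist (z + (v - z) * cis t) z = 1 := by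
    intro t
    rw [dist_eq_norm, add_sub_cancel_left, norm_mul, hvn, norm_cis, one_mul]
  have hτ2 : τ * τ = 1 := by rcases hτ with rfl | rfl <;> norm_num
  have main : ∀ {a b : Fin k}, DPt T z a b c d → Sd U z v a b →
      (∃ᶠ t : ℝ in 𝓝[>] 0, T (z + (v - z) * cis (τ * t)) = {a, b}) →
      ∀ᶠ t : ℝ in 𝓝[>] 0, c ∉ Pal U (z + (v - z) * cis (τ * t)) ∧
        d ∉ Pal U (z + (v - z) * cis (τ * t)) := by
    intro a b hz hs hA
    have ha : a ∈ T z := by rw [hz.pal]; simp
    have hb : b ∈ T z := by rw [hz.pal]; simp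
    have hsn : ∀ᶠ p in 𝓝 v, Sd U z p a b := eventually_eventually_nhds.2 hs
    have hsm : ∀ᶠ t : ℝ in 𝓝[>] 0, 0 < t ∧ t < 1 := by
      filter_upwards [self_mem_nhdsWithin,
        mem_nhdsWithin_of_mem_nhds (Iio_mem_nhds (show (0 : ℝ) < 1 by norm_num))] with t h1 h2
      exact ⟨h1, h2⟩
    obtain ⟨t1, ht1, hs1, h01, h11⟩ :=
      (hA.and_eventually (((tendsto_pt z v τ).eventually hsn).and hsm)).exists
    have p1 := h.arc_of_eq94 ha hb (hon _) ht1
    have hlt : ∀ᶠ t : ℝ in 𝓝[>] 0, 0 < t ∧ t < t1 := by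
      filter_upwards [self_mem_nhdsWithin,
        mem_nhdsWithin_of_mem_nhds (Iio_mem_nhds h01)] with t h1 h2
      exact ⟨h1, h2⟩
    filter_upwards [hlt] with t ht
    have hlt' : ∀ᶠ r : ℝ in 𝓝[>] 0, 0 < r ∧ r < t := by
      filter_upwards [self_mem_nhdsWithin,
        mem_nhdsWithin_of_mem_nhds (Iio_mem_nhds ht.1)] with r h1 h2
      exact ⟨h1, h2⟩
    obtain ⟨t2, ht2, hs2, h02, h12⟩ :=
      (hA.and_eventually (((tendsto_pt z v τ).eventually hsn).and hlt')).exists
    have p2 := h.arc_of_eq94 ha hb (hon _) ht2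
    refine h.hull hz p1 p2 hs1 hs2 (hon _) ?_
    rw [add_sub_cancel_left, add_sub_cancel_left, add_sub_cancel_left, cr_cis_cis hv,
      cr_cis_cis hv]
    have s1 : 0 < Real.sin (t1 - t) :=
      Real.sin_pos_of_pos_of_lt_pi (by linarith [ht.2]) (by linarith [Real.pi_gt_three, ht.1])
    have s2 : 0 < Real.sin (t - t2) :=
      Real.sin_pos_of_pos_of_lt_pi (by linarith) (by linarith [Real.pi_gt_three, ht.2])
    have e1 : Real.sin (τ * t - τ * t1) = -(τ * Real.sin (t1 - t)) := by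
      rcases hτ with rfl | rfl
      · rw [one_mul, one_mul, one_mul, ← Real.sin_neg]; congr 1; ring
      · rw [show (-1 : ℝ) * t - -1 * t1 = t1 - t by ring]; ring
    have e2 : Real.sin (τ * t - τ * t2) = τ * Real.sin (t - t2) := by
      rcases hτ with rfl | rfl
      · rw [one_mul, one_mul, one_mul]
      · rw [show (-1 : ℝ) * t - -1 * t2 = -(t - t2) by ring, Real.sin_neg]; ring
    rw [e1, e2]
    have e3 : -(τ * Real.sin (t1 - t)) * (τ * Real.sin (t - t2)) =
        -((τ * τ) * (Real.sin (t1 - t) * Real.sin (t - t2))) := by ring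
    rw [e3, hτ2, one_mul]
    linarith [mul_pos s1 s2]
  rcases h.sides hz hv with hs | hs
  · exact main hz hs hA
  · exact main hz.swap12 hs (by rwa [pair_comm])

/-- **the other side**: if `v` has `c` or `d` and exact `ab`-points accumulate at `v` from one side,
then near `v` on the other side every point with `T y ⊆ T z` has `c` and `d` -/
theorem Irr.side_far {U : Fin 6 → Set ℂ} {T : ℂ → Set (Fin 6)} (h : Irr U T) {z v : ℂ}
    {a b c d : Fin 6} (hz : DPt T z a b c d) (hv : dist v z = 1)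
    (hcd : c ∈ Pal U v ∨ d ∈ Pal U v) {τ : ℝ} (hτ : τ = 1 ∨ τ = -1)
    (hA : ∃ᶠ t : ℝ in 𝓝[>] 0, T (z + (v - z) * cis (-(τ * t))) = {a, b}) :
    ∀ᶠ t : ℝ in 𝓝[>] 0, T (z + (v - z) * cis (τ * t)) ⊆ T z →
      c ∈ T (z + (v - z) * cis (τ * t)) ∧ d ∈ T (z + (v - z) * cis (τ * t)) := by
  have hvn : ‖v - z‖ = 1 := by rw [← dist_eq_norm]; exact hv
  have hon : ∀ t : ℝ, dist (z + (v - z) * cis t) z = 1 := by
    intro t
    rw [dist_eq_norm, add_sub_cancel_left, norm_mul, hvn, norm_cis, one_mul]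
  have hτ2 : τ * τ = 1 := by rcases hτ with rfl | rfl <;> norm_num
  have hτa : |τ| = 1 := by rcases hτ with rfl | rfl <;> simp
  obtain ⟨δ, hδ, hd⟩ := mem_nhdsGT_iff_exists_Ioo_subset.1 (h.beyond hz hv hcd hτ hA)
  rw [mem_Ioi] at hδ
  have hlt : ∀ᶠ t : ℝ in 𝓝[>] 0, 0 < t ∧ t < δ := by
    filter_upwards [self_mem_nhdsWithin,
      mem_nhdsWithin_of_mem_nhds (Iio_mem_nhds hδ)] with t h1 h2
    exact ⟨h1, h2⟩
  filter_upwards [hlt] with t ht hsub
  set y := z + (v - z) * cis (τ * t) with hy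
  have hyz : dist y z = 1 := hon _
  have hε : 0 < min t (δ - t) := lt_min ht.1 (by linarith [ht.2])
  obtain ⟨q, hqV, hqz, hloc, hqy, hq2, hq3⟩ := h.arc_of_sub hyz hsub (ev_sphere hyz hε)
  obtain ⟨s, hs, hqs⟩ := hqV hqz
  have htw := h.twoPairs hz q hqz hloc (hqy.trans hsub)
  rcases htw with h1 | h1
  · exfalso
    have e1 : q = z + (v - z) * cis (τ * (t + τ * s)) := by
      rw [hqs, hy, add_sub_cancel_left, mul_assoc, ← cis_add94, mul_add, ← mul_assoc, hτ2, one_mul]
    have hs1 : |τ * s| < min t (δ - t) := by rw [abs_mul, hτa, one_mul]; exact hs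
    have hs2 := abs_lt.1 hs1
    have m1 := min_le_left t (δ - t)
    have m2 := min_le_right t (δ - t)
    refine hd (show t + τ * s ∈ Ioo 0 δ from ⟨by linarith [hs2.1], by linarith [hs2.2]⟩) ?_
    rw [← e1]
    exact h1
  · rw [h1] at hqy
    exact ⟨hqy (by simp), hqy (by simp)⟩

end Vale.Agent.P032.Six
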