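import Vale.Agent.P032.S5.H94.Hull
import Vale.Agent.P032.S5.H225.Germ

/-!
# P032: the four germ edges of a two-pair centre, each used by at most one circle

`DPt T z a b c d`, `v` in `S(z)`.  If `a` and `c` are everywhere on a half branch of `S(v)` at `z`,
then `a` and `c` lie on different sides of `S(z)` near `v` (`Irr.opp_sides`).  At most one `v` in
`S(z)` with `a, c ∈ Pal v` has such a half branch (`Irr.edge_unique`).  So at most four points `v` of
`S(z)` have three colours of `T z` (`Irr.three_common`).  Nothing is assumed on the points `v`.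
-/

open Set Filter Topology Metric

noncomputable section

namespace Vale.Agent.P032.Six

variable {k : ℕ} {U : Fin k → Set ℂ} {T : ℂ → Set (Fin k)}

theorem sg_eq (v z g : ℂ) : sg v z g = cr (v - z) (g - z) := by
  unfold sg cr
  simp only [Complex.sub_re, Complex.sub_im]
  ring

/-- the sign rule for a colour which is everywhere on a half branch of `S(v)` at `z` -/
theorem Irr.branch_sign (h : Irr U T) {z v g p : ℂ} {a b : Fin k} {σ τ : ℝ}
    (ra : Ray (U a) z (σ * (Complex.I * (g - z)))) (rb : Ray (U b) z (-(σ * (Complex.I * (g - z)))))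
    (hp : Arc T z p {a, b}) (h1 : σ * cr (g - z) (p - z) ≠ 0) (h2 : τ * cr (v - z) (p - z) ≠ 0)
    (ha : ∀ᶠ t : ℝ in 𝓝[>] 0, a ∈ Pal U (hb v z τ t)) :
    (σ * cr (g - z) (p - z)) * (τ * cr (v - z) (p - z)) < 0 := by
  rcases lt_or_gt_of_ne h1 with h3 | h3
  · have hs := h.mx.sd_of_rays' ra rb hp.1 (by rw [ip_smul, ip_I]; exact h3)
    have hg := (h.germ_sd (z := v) (a := b) (b := a) (by rwa [pair_comm]) hs).1 τ
    rcases lt_or_gt_of_ne h2 with h4 | h4
    · exfalso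
      have h5 := hg (by rw [sg_eq]; exact h4)
      obtain ⟨t, ht1, ht2⟩ := (ha.and h5).exists
      exact ht2 ht1
    · exact mul_neg_of_neg_of_pos h3 h4
  · have hs := h.mx.sd_of_rays ra rb hp.1 (by rw [ip_smul, ip_I]; exact h3)
    have hg := (h.germ_sd (z := v) hp hs).2 τ
    rcases lt_or_gt_of_ne h2 with h4 | h4
    · exact mul_neg_of_pos_of_neg h3 h4
    · exfalso
      have h5 := hg (by rw [sg_eq]; exact h4)
      obtain ⟨t, ht1, ht2⟩ := (ha.and h5).exists
      exact ht2 ht1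

/-- **Opposite sides**: `a` and `c` everywhere on a half branch of `S(v)` at `z`: near `v` one of
them is absent outside `S(z)`, the other one inside -/
theorem Irr.opp_sides (h : Irr U T) {z v : ℂ} {a b c d : Fin k} (hz : DPt T z a b c d)
    (hv : dist v z = 1) {τ : ℝ} (hτ : τ = 1 ∨ τ = -1)
    (ha : ∀ᶠ t : ℝ in 𝓝[>] 0, a ∈ Pal U (hb v z τ t))
    (hc : ∀ᶠ t : ℝ in 𝓝[>] 0, c ∈ Pal U (hb v z τ t)) :
    (Sd U z v a b ∧ Sd U z v d c) ∨ (Sd U z v b a ∧ Sd U z v c d) := by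
  obtain ⟨p0, hp0⟩ := hz.arc1
  obtain ⟨p, hp, hpv, hpv2⟩ := hp0.exists_off_line (y := v)
  obtain ⟨g0, hg0⟩ := hz.arc2
  obtain ⟨g, hg, hgv, hgv2, hgp, hgp2⟩ := hg0.exists_off_two (y := v) (y' := p)
  obtain ⟨σ, hσ, ra, rb⟩ := h.d0_sign hz hg
  obtain ⟨σ', hσ', rc, rd⟩ := h.d0_sign hz.swap hp
  have hτ0 : τ ≠ 0 := by rcases hτ with rfl | rfl <;> norm_num
  have hσ0 : σ ≠ 0 := by rcases hσ with rfl | rfl <;> norm_num
  have hσ0' : σ' ≠ 0 := by rcases hσ' with rfl | rfl <;> norm_num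
  have cgp := cr_ne_of hg.1 hp.1 hgp hgp2
  have cpv := cr_ne_of hp.1 hv hpv hpv2
  have cgv := cr_ne_of hg.1 hv hgv hgv2
  have cpg : cr (p - z) (g - z) ≠ 0 := by rw [cr_swap]; exact neg_ne_zero.2 cgp
  have cvp : cr (v - z) (p - z) ≠ 0 := by rw [cr_swap]; exact neg_ne_zero.2 cpv
  have cvg : cr (v - z) (g - z) ≠ 0 := by rw [cr_swap]; exact neg_ne_zero.2 cgv
  have e1 := h.branch_sign (v := v) (τ := τ) ra rb hp (mul_ne_zero hσ0 cgp)
    (mul_ne_zero hτ0 cvp) ha
  have e2 := h.branch_sign (v := v) (τ := τ) rc rd hg (mul_ne_zero hσ0' cpg)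
    (mul_ne_zero hτ0 cvg) hc
  -- the product of the two side signs is negative
  have hprod : (σ * cr (g - z) (v - z)) * (σ' * cr (p - z) (v - z)) < 0 := by
    have e3 := mul_pos_of_neg_of_neg e1 e2
    have e4 : σ * cr (g - z) (p - z) * (τ * cr (v - z) (p - z)) *
        (σ' * cr (p - z) (g - z) * (τ * cr (v - z) (g - z))) =
        -((σ * cr (g - z) (v - z)) * (σ' * cr (p - z) (v - z))) * (τ * cr (g - z) (p - z)) ^ 2 := by
      rw [cr_swap (v - z) (p - z), cr_swap (p - z) (g - z), cr_swap (v - z) (g - z)]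
      ring
    rw [e4] at e3
    have e5 : 0 < (τ * cr (g - z) (p - z)) ^ 2 := by
      have := mul_ne_zero hτ0 cgp
      positivity
    by_contra hcon
    have e6 : 0 ≤ (σ * cr (g - z) (v - z)) * (σ' * cr (p - z) (v - z)) := not_lt.1 hcon
    nlinarith
  rcases mul_neg_iff.1 hprod with ⟨h1, h2⟩ | ⟨h1, h2⟩
  · exact Or.inl ⟨h.mx.sd_of_rays ra rb hv (by rw [ip_smul, ip_I]; exact h1),
      h.mx.sd_of_rays' rc rd hv (by rw [ip_smul, ip_I]; exact h2)⟩
  · exact Or.inr ⟨h.mx.sd_of_rays' ra rb hv (by rw [ip_smul, ip_I]; exact h1),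
      h.mx.sd_of_rays rc rd hv (by rw [ip_smul, ip_I]; exact h2)⟩

/-- the points of a half branch of `S(v)` at `z` are on one side of `S(V)`, `V` on `S(z)`, `V ≠ v` -/
theorem hb_side {z v V : ℂ} (hv : dist v z = 1) (hV : dist V z = 1) (hne : V ≠ v) {τ : ℝ}
    (hτ : τ = 1 ∨ τ = -1) :
    (∀ᶠ t : ℝ in 𝓝[>] 0, dist (hb v z τ t) V < 1) ∨
      (∀ᶠ t : ℝ in 𝓝[>] 0, 1 < dist (hb v z τ t) V) := by
  have hτ0 : τ ≠ 0 := by rcases hτ with rfl | rfl <;> norm_num
  by_cases hc : sg v z V = 0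
  · right
    rw [sg_eq] at hc
    have hVe : V = 2 * z - v := by
      rcases cr_zero (by rw [← dist_eq_norm]; exact hv) (by rw [← dist_eq_norm]; exact hV) hc
        with h4 | h4
      · exact absurd (by linear_combination -h4) hne
      · linear_combination h4
    have hsm : ∀ᶠ t : ℝ in 𝓝[>] 0, 0 < t ∧ t < 1 := by
      filter_upwards [self_mem_nhdsWithin,
        mem_nhdsWithin_of_mem_nhds (Iio_mem_nhds (show (0 : ℝ) < 1 by norm_num))] with t h1 h2
      exact ⟨h1, h2⟩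
    filter_upwards [hsm] with t ht
    have hvn : ‖v - z‖ = 1 := by rw [← dist_eq_norm]; exact hv
    have e1 : hb v z τ t - V = (v - z) * (2 - cis (τ * t)) := by
      rw [hVe]; unfold hb; ring
    have hcos : Real.cos (τ * t) < 1 := by
      have hc : Real.cos (τ * t) = Real.cos t := by
        rcases hτ with rfl | rfl
        · rw [one_mul]
        · rw [neg_one_mul, Real.cos_neg]
      rw [hc, ← Real.cos_zero]
      exact Real.cos_lt_cos_of_nonneg_of_le_pi le_rfl (by linarith [Real.pi_gt_three, ht.2]) ht.1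
    rw [dist_eq_norm, e1, norm_mul, hvn, one_mul]
    have h6 : ‖2 - cis (τ * t)‖ ^ 2 = 5 - 4 * Real.cos (τ * t) := by
      rw [Complex.sq_norm, Complex.normSq_apply]
      simp only [Complex.sub_re, Complex.sub_im, cis_re, cis_im]
      have := Real.sin_sq_add_cos_sq (τ * t)
      simp
      nlinarith
    have h7 := norm_nonneg (2 - cis (τ * t))
    nlinarith
  · rcases lt_or_gt_of_ne (mul_ne_zero hτ0 hc) with h1 | h1
    · exact Or.inl (hb_in (z := v) (v := z) (g := V) hV h1)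
    · exact Or.inr (hb_out (z := v) (v := z) (g := V) hV h1)

/-- a curve of points with the colour `i` starting at `z` sweeps one side of `S(z)` near `V` -/
theorem Mx.curve_far (h : Mx U) {z V : ℂ} {w : ℝ → ℂ} {i : Fin k} (hw : Continuous w)
    (hw0 : w 0 = z) (hi : ∀ᶠ t : ℝ in 𝓝[>] 0, i ∈ Pal U (w t))
    (hs : ∀ᶠ t : ℝ in 𝓝[>] 0, dist (w t) V < 1) :
    ∀ᶠ x in 𝓝 V, 1 < dist x z → i ∉ Pal U x := by
  obtain ⟨δ, hδ, hd⟩ := mem_nhdsGT_iff_exists_Ioo_subset.1 (hi.and hs)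
  rw [mem_Ioi] at hδ
  have hδ2 : δ / 2 ∈ Ioo 0 δ := ⟨by linarith, by linarith⟩
  have h1 := (hd hδ2).2
  have e1 : ∀ᶠ x in 𝓝 V, dist (w (δ / 2)) x < 1 :=
    (continuous_const.dist continuous_id).continuousAt.eventually (Iio_mem_nhds h1)
  filter_upwards [eventually_eventually_nhds.2 e1] with x hx hxz hix
  have e2 : ∀ᶠ y in 𝓝 x, 1 < dist y z :=
    (continuous_id.dist continuous_const).continuousAt.eventually (Ioi_mem_nhds hxz)
  obtain ⟨g, ⟨hg1, hg2⟩, hgU⟩ := mem_closure_iff_nhds.1 hix _ (hx.and e2)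
  have hcont : ContinuousOn (fun t => dist (w t) g) (uIcc 0 (δ / 2)) :=
    (hw.dist continuous_const).continuousOn
  have hmem : (1 : ℝ) ∈ uIcc (dist (w 0) g) (dist (w (δ / 2)) g) := by
    rw [hw0, dist_comm z g, uIcc_of_ge (by linarith [hg1, hg2])]
    exact ⟨le_of_lt hg1, le_of_lt hg2⟩
  obtain ⟨t, ht, ht1⟩ := intermediate_value_uIcc hcont hmem
  have ht1 : dist (w t) g = 1 := ht1
  rw [uIcc_of_le (by linarith)] at ht
  have ht0 : t ≠ 0 := by
    rintro rfl
    rw [hw0, dist_comm] at ht1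
    have : 1 < dist g z := hg2
    linarith
  have := (hd (show t ∈ Ioo 0 δ from ⟨lt_of_le_of_ne ht.1 (Ne.symm ht0), by linarith [ht.2]⟩)).1
  exact h.notMem' hgU (by rw [dist_comm]; exact ht1) this

theorem Mx.curve_near (h : Mx U) {z V : ℂ} {w : ℝ → ℂ} {i : Fin k} (hw : Continuous w)
    (hw0 : w 0 = z) (hi : ∀ᶠ t : ℝ in 𝓝[>] 0, i ∈ Pal U (w t))
    (hs : ∀ᶠ t : ℝ in 𝓝[>] 0, 1 < dist (w t) V) :
    ∀ᶠ x in 𝓝 V, dist x z < 1 → i ∉ Pal U x := by
  obtain ⟨δ, hδ, hd⟩ := mem_nhdsGT_iff_exists_Ioo_subset.1 (hi.and hs)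
  rw [mem_Ioi] at hδ
  have hδ2 : δ / 2 ∈ Ioo 0 δ := ⟨by linarith, by linarith⟩
  have h1 := (hd hδ2).2
  have e1 : ∀ᶠ x in 𝓝 V, 1 < dist (w (δ / 2)) x :=
    (continuous_const.dist continuous_id).continuousAt.eventually (Ioi_mem_nhds h1)
  filter_upwards [eventually_eventually_nhds.2 e1] with x hx hxz hix
  have e2 : ∀ᶠ y in 𝓝 x, dist y z < 1 :=
    (continuous_id.dist continuous_const).continuousAt.eventually (Iio_mem_nhds hxz)
  obtain ⟨g, ⟨hg1, hg2⟩, hgU⟩ := mem_closure_iff_nhds.1 hix _ (hx.and e2)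
  have hcont : ContinuousOn (fun t => dist (w t) g) (uIcc 0 (δ / 2)) :=
    (hw.dist continuous_const).continuousOn
  have hmem : (1 : ℝ) ∈ uIcc (dist (w 0) g) (dist (w (δ / 2)) g) := by
    rw [hw0, dist_comm z g, uIcc_of_le (by linarith [hg1, hg2])]
    exact ⟨le_of_lt hg2, le_of_lt hg1⟩
  obtain ⟨t, ht, ht1⟩ := intermediate_value_uIcc hcont hmem
  have ht1 : dist (w t) g = 1 := ht1
  rw [uIcc_of_le (by linarith)] at ht
  have ht0 : t ≠ 0 := by
    rintro rfl
    rw [hw0, dist_comm] at ht1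
    have : dist g z < 1 := hg2
    linarith
  have := (hd (show t ∈ Ioo 0 δ from ⟨lt_of_le_of_ne ht.1 (Ne.symm ht0), by linarith [ht.2]⟩)).1
  exact h.notMem' hgU (by rw [dist_comm]; exact ht1) this

theorem continuous_hb (z v : ℂ) (τ : ℝ) : Continuous (hb z v τ) :=
  continuous_const.add (continuous_const.mul (continuous_cis.comp
    (continuous_const.mul continuous_id)))

theorem hb_zero (z v : ℂ) (τ : ℝ) : hb z v τ 0 = v := by simp [hb, cis]

/-- **Edge uniqueness**: the germ edge `a|c` of a two-pair centre is used by at most one circle -/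
theorem Irr.edge_unique (h : Irr U T) {z v v' : ℂ} {a b c d : Fin k} (hz : DPt T z a b c d)
    (hv : dist v z = 1) (hv' : dist v' z = 1) {τ τ' : ℝ} (hτ : τ = 1 ∨ τ = -1)
    (hτ' : τ' = 1 ∨ τ' = -1)
    (ha : ∀ᶠ t : ℝ in 𝓝[>] 0, a ∈ Pal U (hb v z τ t))
    (hc : ∀ᶠ t : ℝ in 𝓝[>] 0, c ∈ Pal U (hb v z τ t))
    (ha' : ∀ᶠ t : ℝ in 𝓝[>] 0, a ∈ Pal U (hb v' z τ' t))
    (hc' : ∀ᶠ t : ℝ in 𝓝[>] 0, c ∈ Pal U (hb v' z τ' t))
    (hav : a ∈ Pal U v') (hcv : c ∈ Pal U v') : v' = v := by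
  by_contra hne
  have hopp := h.opp_sides hz hv' hτ' ha' hc'
  rcases hb_side hv hv' hne hτ with hs | hs
  · have sa := h.mx.curve_far (continuous_hb v z τ) (hb_zero v z τ) ha hs
    have sc := h.mx.curve_far (continuous_hb v z τ) (hb_zero v z τ) hc hs
    rcases hopp with ⟨-, h2⟩ | ⟨h1, -⟩
    · exact h.mx.absent_both sc (h2.mono fun x hx => hx.2) hcv
    · exact h.mx.absent_both sa (h1.mono fun x hx => hx.2) hav
  · have sa := h.mx.curve_near (continuous_hb v z τ) (hb_zero v z τ) ha hs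
    have sc := h.mx.curve_near (continuous_hb v z τ) (hb_zero v z τ) hc hs
    rcases hopp with ⟨h1, -⟩ | ⟨-, h2⟩
    · exact h.mx.absent_both (h1.mono fun x hx => hx.1) sa hav
    · exact h.mx.absent_both (h2.mono fun x hx => hx.1) sc hcv

end Vale.Agent.P032.Six
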