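import Vale.Agent.P032.S5.H94.Edge

/-!
# P032: finiteness of the special points of the circle about a two-pair centre

`Irr.three_common`: at most four points `v` of `S(z)`, `z` a two-pair centre, have at least three
colours of `T z` (nothing else is assumed on `v`).  `Irr.finite_four`: if all points of `S(z)` with
at least four colours are two-pair centres, there are finitely many of them.  `Irr.dpt_acc`: two-pair
centres on `S(z)` can accumulate only at a point with at least four colours which is no two-pair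
centre.
-/

open Set Filter Topology Metric

noncomputable section

namespace Vale.Agent.P032.Six

variable {k : ℕ} {U : Fin k → Set ℂ} {T : ℂ → Set (Fin k)}

/-- `S(v)` has a half branch at `z` on which `x` and `y` are everywhere, and `x, y ∈ T v` -/
def Uses (U : Fin k → Set ℂ) (T : ℂ → Set (Fin k)) (z v : ℂ) (x y : Fin k) : Prop :=
  x ∈ T v ∧ y ∈ T v ∧ ∃ τ : ℝ, (τ = 1 ∨ τ = -1) ∧
    (∀ᶠ t : ℝ in 𝓝[>] 0, x ∈ Pal U (hb v z τ t)) ∧ ∀ᶠ t : ℝ in 𝓝[>] 0, y ∈ Pal U (hb v z τ t)

theorem Irr.uses_unique (h : Irr U T) {z v v' : ℂ} {a b c d : Fin k} (hz : DPt T z a b c d)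
    (hv : dist v z = 1) (hv' : dist v' z = 1) (h1 : Uses U T z v a c) (h2 : Uses U T z v' a c) :
    v' = v := by
  obtain ⟨-, -, τ, hτ, ha, hc⟩ := h1
  obtain ⟨hav, hcv, τ', hτ', ha', hc'⟩ := h2
  exact h.edge_unique hz hv hv' hτ hτ' ha hc ha' hc' (h.sub _ hav) (h.sub _ hcv)

/-- a point of `S(z)` with `x, y` whose circle has a half branch at `z` in `{x, y}` uses `x|y` -/
theorem Irr.uses_of (h : Irr U T) {z v : ℂ} {x y : Fin k} (hv : dist v z = 1) {τ : ℝ}
    (hτ : τ = 1 ∨ τ = -1) (h1 : ∀ᶠ t : ℝ in 𝓝[>] 0, T (hb v z τ t) ⊆ {x, y}) (hx : x ∈ T v)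
    (hy : y ∈ T v) : Uses U T z v x y := by
  have h2 := h.hb_exact (z := v) (v := z) (by rw [dist_comm]; exact hv) h1 (h.sub _ hx) (h.sub _ hy)
  refine ⟨hx, hy, τ, hτ, ?_, ?_⟩
  · filter_upwards [h2] with t ht
    exact h.sub _ (by rw [ht]; simp)
  · filter_upwards [h2] with t ht
    exact h.sub _ (by rw [ht]; simp)

/-- a point `v` of `S(z)` which misses at most one colour of `T z` uses a germ edge of `z` -/
theorem Irr.uses_exists (h : Irr U T) {z v : ℂ} {a b c d : Fin k} (hz : DPt T z a b c d)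
    (hv : dist v z = 1) {m : Fin k} (hm : ∀ i ∈ T z, i ≠ m → i ∈ T v) :
    Uses U T z v a c ∨ Uses U T z v a d ∨ Uses U T z v b c ∨ Uses U T z v b d := by
  have ha : a ∈ T z := by rw [hz.pal]; simp
  have hb' : b ∈ T z := by rw [hz.pal]; simp
  have hc : c ∈ T z := by rw [hz.pal]; simp
  have hd : d ∈ T z := by rw [hz.pal]; simp
  have hv' : dist z v = 1 := by rw [dist_comm]; exact hv
  have two : ∀ x y x' y' : Fin k, x ∈ T z → y ∈ T z → x' ∈ T z → y' ∈ T z → x ≠ x' → x ≠ y' →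
      y ≠ x' → y ≠ y' → Gm T v z x y x' y' → Uses U T z v x y ∨ Uses U T z v x' y' := by
    intro x y x' y' hx hy hx' hy' h1 h2 h3 h4 hG
    by_cases hxm : x = m ∨ y = m
    · right
      have hx'm : x' ≠ m := by
        rintro rfl
        rcases hxm with h5 | h5
        · exact h1 h5
        · exact h3 h5
      have hy'm : y' ≠ m := by
        rintro rfl
        rcases hxm with h5 | h5
        · exact h2 h5
        · exact h4 h5
      exact h.uses_of hv (Or.inr rfl) hG.2 (hm x' hx' hx'm) (hm y' hy' hy'm)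
    · left
      push Not at hxm
      exact h.uses_of hv (Or.inl rfl) hG.1 (hm x hx hxm.1) (hm y hy hxm.2)
  rcases h.germ_branch hz hv' with h1 | h1 | h1 | h1
  · rcases two a c b d ha hc hb' hd hz.ab hz.ad hz.bc.symm hz.cd h1 with h2 | h2
    · exact Or.inl h2
    · exact Or.inr (Or.inr (Or.inr h2))
  · rcases two a d b c ha hd hb' hc hz.ab hz.ac hz.bd.symm hz.cd.symm h1 with h2 | h2
    · exact Or.inr (Or.inl h2)
    · exact Or.inr (Or.inr (Or.inl h2))
  · rcases two b c a d hb' hc ha hd hz.ab.symm hz.bd hz.ac.symm hz.cd h1 with h2 | h2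
    · exact Or.inr (Or.inr (Or.inl h2))
    · exact Or.inr (Or.inl h2)
  · rcases two b d a c hb' hd ha hc hz.ab.symm hz.bc hz.ad.symm hz.cd.symm h1 with h2 | h2
    · exact Or.inr (Or.inr (Or.inr h2))
    · exact Or.inl h2

/-- **Three common colours**: at most four points of `S(z)` miss at most one colour of `T z` -/
theorem Irr.three_common (h : Irr U T) {z : ℂ} {a b c d : Fin k} (hz : DPt T z a b c d) :
    {v | dist v z = 1 ∧ ∃ m, ∀ i ∈ T z, i ≠ m → i ∈ T v}.Finite ∧
      {v | dist v z = 1 ∧ ∃ m, ∀ i ∈ T z, i ≠ m → i ∈ T v}.ncard ≤ 4 := by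
  set S := {v | dist v z = 1 ∧ ∃ m, ∀ i ∈ T z, i ≠ m → i ∈ T v} with hS
  have hsub : ∀ x y : Fin k, (∃ p q, DPt T z x p y q) →
      {v | v ∈ S ∧ Uses U T z v x y}.Subsingleton := by
    rintro x y ⟨p, q, hzz⟩ v ⟨hv, hvu⟩ v' ⟨hv', hvu'⟩
    exact (h.uses_unique hzz hv.1 hv'.1 hvu hvu').symm
  have s1 := hsub a c ⟨b, d, hz⟩
  have s2 := hsub a d ⟨b, c, hz.swap34⟩
  have s3 := hsub b c ⟨a, d, hz.swap12⟩
  have s4 := hsub b d ⟨a, c, hz.swap12.swap34⟩
  have hcov : S ⊆ ({v | v ∈ S ∧ Uses U T z v a c} ∪ {v | v ∈ S ∧ Uses U T z v a d}) ∪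
      ({v | v ∈ S ∧ Uses U T z v b c} ∪ {v | v ∈ S ∧ Uses U T z v b d}) := by
    intro v hv
    obtain ⟨m, hm⟩ := hv.2
    rcases h.uses_exists hz hv.1 hm with h1 | h1 | h1 | h1
    · exact Or.inl (Or.inl ⟨hv, h1⟩)
    · exact Or.inl (Or.inr ⟨hv, h1⟩)
    · exact Or.inr (Or.inl ⟨hv, h1⟩)
    · exact Or.inr (Or.inr ⟨hv, h1⟩)
  have hfin := ((s1.finite.union s2.finite).union (s3.finite.union s4.finite))
  have card : ∀ {A : Set ℂ}, A.Subsingleton → A.ncard ≤ 1 := fun hA =>
    (Set.ncard_le_one hA.finite).2 fun x hx y hy => hA hx hy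
  refine ⟨hfin.subset hcov, (Set.ncard_le_ncard hcov hfin).trans ?_⟩
  refine (Set.ncard_union_le _ _).trans ?_
  have e1 := (Set.ncard_union_le {v | v ∈ S ∧ Uses U T z v a c} {v | v ∈ S ∧ Uses U T z v a d})
  have e2 := (Set.ncard_union_le {v | v ∈ S ∧ Uses U T z v b c} {v | v ∈ S ∧ Uses U T z v b d})
  have c1 := card s1
  have c2 := card s2
  have c3 := card s3
  have c4 := card s4
  omega

/-- the points with at least four colours form a closed set -/
theorem Irr.closed_four (h : Irr U T) : IsClosed {v | 4 ≤ (T v).ncard} := by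
  rw [← isOpen_compl_iff, isOpen_iff_mem_nhds]
  intro x hx
  have hx : (T x).ncard < 4 := not_le.1 hx
  filter_upwards [h.nhd x] with w hw
  have := Set.ncard_le_ncard hw (Set.toFinite _)
  show ¬ 4 ≤ (T w).ncard
  omega

/-- **accumulation**: infinitely many points with at least four colours on `S(z)` accumulate at a
point of `S(z)` with at least four colours which is no two-pair centre -/
theorem Irr.dpt_acc (h : Irr U T) {z : ℂ} {S : Set ℂ}
    (hS : S ⊆ {v | dist v z = 1 ∧ 4 ≤ (T v).ncard}) (hinf : S.Infinite) :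
    ∃ v, dist v z = 1 ∧ 4 ≤ (T v).ncard ∧ AccPt v (𝓟 S) ∧ ¬ ∃ a b c d, DPt T v a b c d := by
  have hcl : IsClosed {v | dist v z = 1 ∧ 4 ≤ (T v).ncard} :=
    (isClosed_singleton.preimage (continuous_id.dist continuous_const)).inter h.closed_four
  have hcpt : IsCompact {v | dist v z = 1 ∧ 4 ≤ (T v).ncard} :=
    (isCompact_sphere z 1).of_isClosed_subset hcl fun v hv => hv.1
  obtain ⟨v, hv, hacc⟩ := hinf.exists_accPt_of_subset_isCompact hcpt hS
  refine ⟨v, hv.1, hv.2, hacc, ?_⟩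
  rintro ⟨a, b, c, d, hd⟩
  rw [accPt_iff_frequently] at hacc
  have h1 := h.dpt_two hd
  obtain ⟨w, ⟨hwv, hwS⟩, h2⟩ := (hacc.and_eventually h1).exists
  have h3 := (h2 hwv).2.2
  have h4 := (hS hwS).2
  omega

/-- **finiteness**: if all points of `S(z)` with at least four colours are two-pair centres, there
are finitely many of them -/
theorem Irr.finite_four (h : Irr U T) {z : ℂ}
    (hall : ∀ v, dist v z = 1 → 4 ≤ (T v).ncard → ∃ a b c d, DPt T v a b c d) :
    {v | dist v z = 1 ∧ 4 ≤ (T v).ncard}.Finite := by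
  by_contra hinf
  obtain ⟨v, hv, h4, -, hno⟩ := h.dpt_acc Subset.rfl hinf
  exact hno (hall v hv h4)

end Vale.Agent.P032.Six
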