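import Vale.Agent.P032.S5.H94.Iso
import Vale.Agent.P032.S5.H824.Two

/-!
# P032: the hull of the exact arcs at a two-pair centre, and what is beyond an end

`DPt T z a b c d`.  Two exact `ab`-points `p1, p2` of `S(z)` with the same inner colour: no point
`v` of `S(z)` with `v` or `2 z - v` strictly between them has `c` or `d`, not even in `Pal`
(`Irr.hull`).  At a point `v` of `S(z)` which has `c` or `d` and at which exact `ab`-points
accumulate from one side there are no `ab`-points near `v` on the other side (`Irr.beyond`).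
-/

open Set Filter Topology Metric

noncomputable section

namespace Vale.Agent.P032.Six

variable {k : ℕ} {U : Fin k → Set ℂ} {T : ℂ → Set (Fin k)}

/-- a point of `S(z)` with two colours of `T z` and no others is in an exact arc -/
theorem Irr.arc_of_eq94 (h : Irr U T) {z y : ℂ} {a b : Fin k} (ha : a ∈ T z) (hb : b ∈ T z)
    (hy : dist y z = 1) (hT : T y = {a, b}) : Arc T z y {a, b} := by
  refine ⟨hy, ?_⟩
  filter_upwards [mem_nhdsWithin_of_mem_nhds (h.nhd y), self_mem_nhdsWithin] with q h1 h2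
  rw [hT] at h1
  have h2 : dist q z = 1 := h2
  have hUa : q ∉ U a := h.mx.notMem (h.sub _ ha) h2
  have hUb : q ∉ U b := h.mx.notMem (h.sub _ hb) h2
  refine Subset.antisymm h1 ?_
  rintro i (rfl | hi)
  · by_contra hcon
    refine hUb (h.mem_of_single fun j hj => ?_)
    rcases h1 hj with rfl | h5
    · exact absurd hj hcon
    · exact h5
  · rw [mem_singleton_iff] at hi
    subst hi
    by_contra hcon
    refine hUa (h.mem_of_single fun j hj => ?_)
    rcases h1 hj with rfl | h5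
    · rfl
    · rw [mem_singleton_iff] at h5; subst h5; exact absurd hj hcon

/-- a colour absent on both sides of `S(z)` near `v` is not in `Pal v` -/
theorem Mx.absent_both (h : Mx U) {z v : ℂ} {i : Fin k}
    (h1 : ∀ᶠ x in 𝓝 v, 1 < dist x z → i ∉ Pal U x) (h2 : ∀ᶠ x in 𝓝 v, dist x z < 1 → i ∉ Pal U x) :
    i ∉ Pal U v := by
  intro hv
  obtain ⟨g, ⟨hgU, hg1, hg2⟩, hgz⟩ := exists_off (h.isOpen i) (z := z) hv (h1.and h2)
  rcases lt_or_gt_of_ne hgz with h3 | h3
  · exact hg2 h3 (subset_closure hgU)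
  · exact hg1 h3 (subset_closure hgU)

/-- two rays of `U i` at `z` on both sides of the line through `z` orthogonal to `v - z` -/
theorem Mx.two_rays (h : Mx U) {z v u1 u2 : ℂ} {i : Fin k} (hu1 : Ray (U i) z u1)
    (hu2 : Ray (U i) z u2) (hv : dist v z = 1) (hs : ip u1 (v - z) * ip u2 (v - z) < 0) :
    i ∉ Pal U v := by
  rcases mul_neg_iff.1 hs with ⟨h1, h2⟩ | ⟨h1, h2⟩
  · exact h.absent_both (h.far hu1 hv h1) (h.near hu2 hv h2)
  · exact h.absent_both (h.far hu2 hv h2) (h.near hu1 hv h1)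

theorem cr_smul (s : ℝ) (a b : ℂ) : cr (s * a) b = s * cr a b := by
  unfold cr
  simp
  ring

/-- the sign of the ray of `U c` over an exact `ab`-point: it is the same for two exact
`ab`-points with the same inner colour -/
theorem Irr.same_side (h : Irr U T) {z p1 p2 : ℂ} {a b c d : Fin k} (hz : DPt T z a b c d)
    (hp1 : Arc T z p1 {a, b}) (hp2 : Arc T z p2 {a, b}) (hs1 : Sd U z p1 a b)
    (hs2 : Sd U z p2 a b) :
    ∃ s : ℝ, (s = 1 ∨ s = -1) ∧ Ray (U c) z (s * (Complex.I * (p1 - z))) ∧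
      Ray (U d) z (-(s * (Complex.I * (p1 - z)))) ∧ Ray (U c) z (s * (Complex.I * (p2 - z))) ∧
      Ray (U d) z (-(s * (Complex.I * (p2 - z)))) := by
  obtain ⟨p, hp⟩ := hz.arc2
  obtain ⟨g, hg, hg1, hg12, hg2, hg22⟩ := hp.exists_off_two (y := p1) (y' := p2)
  obtain ⟨σ, hσ, ra, rb⟩ := h.d0_sign hz hg
  obtain ⟨s1, hs1', rc1, rd1⟩ := h.d0_sign hz.swap hp1
  obtain ⟨s2, hs2', rc2, rd2⟩ := h.d0_sign hz.swap hp2
  have haT1 : a ∈ T p1 := by rw [hp1.mem]; simp
  have haT2 : a ∈ T p2 := by rw [hp2.mem]; simp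
  have hcTg : c ∈ T g := by rw [hg.mem]; simp
  have c1 := cr_ne_of hg.1 hp1.1 hg1 hg12
  have c2 := cr_ne_of hg.1 hp2.1 hg2 hg22
  -- `a` is inside at `p1` and at `p2`
  have pos : ∀ p : ℂ, Arc T z p {a, b} → Sd U z p a b → cr (g - z) (p - z) ≠ 0 →
      0 < σ * cr (g - z) (p - z) := by
    intro p hp hs hc
    by_contra hcon
    have h1 : σ * cr (g - z) (p - z) ≠ 0 :=
      mul_ne_zero (by rcases hσ with rfl | rfl <;> norm_num) hc
    have h2 : σ * cr (g - z) (p - z) < 0 := lt_of_le_of_ne (not_lt.1 hcon) h1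
    have h3 := h.mx.sd_of_rays' ra rb hp.1 (by rw [ip_smul, ip_I]; exact h2)
    exact h.sd_unique (by rw [hp.mem]; simp) hs h3
  have q1 := pos p1 hp1 hs1 c1
  have q2 := pos p2 hp2 hs2 c2
  -- the inner colour of `g`
  have d1 : cr (p1 - z) (g - z) = -cr (g - z) (p1 - z) := cr_swap _ _
  have d2 : cr (p2 - z) (g - z) = -cr (g - z) (p2 - z) := cr_swap _ _
  have hss : s1 = s2 := by
    by_contra hne
    have hopp : s2 = -s1 := by
      rcases hs1' with rfl | rfl <;> rcases hs2' with rfl | rfl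
      · exact absurd rfl hne
      · rfl
      · norm_num
      · exact absurd rfl hne
    -- the two signs are opposite
    have hprod : (s1 * cr (p1 - z) (g - z)) * (s2 * cr (p2 - z) (g - z)) < 0 := by
      rw [hopp, d1, d2]
      have e1 : s1 ^ 2 = 1 := by rcases hs1' with rfl | rfl <;> norm_num
      have e2 : σ ^ 2 = 1 := by rcases hσ with rfl | rfl <;> norm_num
      have : s1 * -cr (g - z) (p1 - z) * (-s1 * -cr (g - z) (p2 - z)) =
          -((σ * cr (g - z) (p1 - z)) * (σ * cr (g - z) (p2 - z))) := by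
        linear_combination (-(cr (g - z) (p1 - z) * cr (g - z) (p2 - z))) * e1 +
          (cr (g - z) (p1 - z) * cr (g - z) (p2 - z)) * e2
      rw [this]
      linarith [mul_pos q1 q2]
    rcases mul_neg_iff.1 hprod with ⟨h1, h2⟩ | ⟨h1, h2⟩
    · have e1 := h.mx.sd_of_rays rc1 rd1 hg.1 (by rw [ip_smul, ip_I]; exact h1)
      have e2 := h.mx.sd_of_rays' rc2 rd2 hg.1 (by rw [ip_smul, ip_I]; exact h2)
      exact h.sd_unique hcTg e1 e2
    · have e1 := h.mx.sd_of_rays' rc1 rd1 hg.1 (by rw [ip_smul, ip_I]; exact h1)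
      have e2 := h.mx.sd_of_rays rc2 rd2 hg.1 (by rw [ip_smul, ip_I]; exact h2)
      exact h.sd_unique hcTg e2 e1
  subst hss
  exact ⟨s1, hs1', rc1, rd1, rc2, rd2⟩

/-- **Hull**: strictly between two exact `ab`-points of `S(z)` with the same inner colour (or
antipodal to such a point) neither `c` nor `d` occurs -/
theorem Irr.hull (h : Irr U T) {z p1 p2 v : ℂ} {a b c d : Fin k} (hz : DPt T z a b c d)
    (hp1 : Arc T z p1 {a, b}) (hp2 : Arc T z p2 {a, b}) (hs1 : Sd U z p1 a b)
    (hs2 : Sd U z p2 a b) (hv : dist v z = 1)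
    (hcr : cr (p1 - z) (v - z) * cr (p2 - z) (v - z) < 0) : c ∉ Pal U v ∧ d ∉ Pal U v := by
  obtain ⟨s, hs, rc1, rd1, rc2, rd2⟩ := h.same_side hz hp1 hp2 hs1 hs2
  have e1 : s ^ 2 = 1 := by rcases hs with rfl | rfl <;> norm_num
  constructor
  · refine h.mx.two_rays rc1 rc2 hv ?_
    rw [ip_smul, ip_smul, ip_I, ip_I]
    nlinarith
  · refine h.mx.two_rays rd1 rd2 hv ?_
    rw [ip_neg, ip_neg, ip_smul, ip_smul, ip_I, ip_I]
    nlinarith

/-- the cross product of two directions near `v` -/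
theorem cr_cis_near {z v : ℂ} (hv : dist v z = 1) (s : ℝ) :
    cr ((v - z) * cis s) (v - z) = -Real.sin s := by
  have hvn : ‖v - z‖ = 1 := by rw [← dist_eq_norm]; exact hv
  have := ip_sq hvn
  unfold cr
  simp only [Complex.mul_re, Complex.mul_im, cis_re, cis_im]
  linear_combination (-Real.sin s) * this

/-- hull, local form: exact `ab`-points on both sides of `v` near `v` -/
theorem Irr.hull_near (h : Irr U T) {z v : ℂ} {a b c d : Fin k} (hz : DPt T z a b c d)
    (hv : dist v z = 1) (h1 : ∃ᶠ t : ℝ in 𝓝[>] 0, T (z + (v - z) * cis t) = {a, b})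
    (h2 : ∃ᶠ t : ℝ in 𝓝[>] 0, T (z + (v - z) * cis (-t)) = {a, b}) :
    c ∉ Pal U v ∧ d ∉ Pal U v := by
  have hvn : ‖v - z‖ = 1 := by rw [← dist_eq_norm]; exact hv
  have ha : a ∈ T z := by rw [hz.pal]; simp
  have hb : b ∈ T z := by rw [hz.pal]; simp
  have hc1 : Tendsto (fun t : ℝ => z + (v - z) * cis t) (𝓝[>] 0) (𝓝 v) := by
    have : Continuous fun t : ℝ => z + (v - z) * cis t :=
      continuous_const.add (continuous_const.mul continuous_cis)
    have h2 := this.tendsto 0
    have e : z + (v - z) * cis 0 = v := by simp [cis]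
    rw [e] at h2
    exact h2.mono_left nhdsWithin_le_nhds
  have hc2 : Tendsto (fun t : ℝ => z + (v - z) * cis (-t)) (𝓝[>] 0) (𝓝 v) := by
    have : Continuous fun t : ℝ => z + (v - z) * cis (-t) :=
      continuous_const.add (continuous_const.mul (continuous_cis.comp continuous_neg))
    have h2 := this.tendsto 0
    have e : z + (v - z) * cis (-0) = v := by simp [cis]
    rw [e] at h2
    exact h2.mono_left nhdsWithin_le_nhds
  have hsm : ∀ᶠ t : ℝ in 𝓝[>] 0, 0 < t ∧ t < 1 := by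
    filter_upwards [self_mem_nhdsWithin,
      mem_nhdsWithin_of_mem_nhds (Iio_mem_nhds (show (0 : ℝ) < 1 by norm_num))] with t h1 h2
    exact ⟨h1, h2⟩
  have hon : ∀ t : ℝ, dist (z + (v - z) * cis t) z = 1 := by
    intro t
    rw [dist_eq_norm, add_sub_cancel_left, norm_mul, hvn, norm_cis, one_mul]
  have main : ∀ {a b : Fin k}, DPt T z a b c d → Sd U z v a b →
      (∃ᶠ t : ℝ in 𝓝[>] 0, T (z + (v - z) * cis t) = {a, b}) →
      (∃ᶠ t : ℝ in 𝓝[>] 0, T (z + (v - z) * cis (-t)) = {a, b}) → c ∉ Pal U v ∧ d ∉ Pal U v := by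
    intro a b hz hs h1 h2
    have ha : a ∈ T z := by rw [hz.pal]; simp
    have hb : b ∈ T z := by rw [hz.pal]; simp
    have hsn : ∀ᶠ p in 𝓝 v, Sd U z p a b := eventually_eventually_nhds.2 hs
    obtain ⟨t1, ht1, hs1, h01, h11⟩ := (h1.and_eventually ((hc1.eventually hsn).and hsm)).exists
    obtain ⟨t2, ht2, hs2, h02, h12⟩ := (h2.and_eventually ((hc2.eventually hsn).and hsm)).exists
    have p1 := h.arc_of_eq94 ha hb (hon t1) ht1
    have p2 := h.arc_of_eq94 ha hb (hon (-t2)) ht2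
    refine h.hull hz p1 p2 hs1 hs2 hv ?_
    rw [add_sub_cancel_left, add_sub_cancel_left, cr_cis_near hv, cr_cis_near hv, Real.sin_neg]
    have s1 : 0 < Real.sin t1 := Real.sin_pos_of_pos_of_lt_pi h01 (by linarith [Real.pi_gt_three])
    have s2 : 0 < Real.sin t2 := Real.sin_pos_of_pos_of_lt_pi h02 (by linarith [Real.pi_gt_three])
    nlinarith [mul_pos s1 s2]
  rcases h.sides hz hv with hs | hs
  · exact main hz hs h1 h2
  · exact main hz.swap12 hs (by rwa [pair_comm]) (by rwa [pair_comm])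

/-- **Beyond an end**: if `v` has `c` or `d` and exact `ab`-points accumulate at `v` from one side,
there are no `ab`-points near `v` on the other side -/
theorem Irr.beyond (h : Irr U T) {z v : ℂ} {a b c d : Fin k} (hz : DPt T z a b c d)
    (hv : dist v z = 1) (hcd : c ∈ Pal U v ∨ d ∈ Pal U v) {τ : ℝ} (hτ : τ = 1 ∨ τ = -1)
    (hA : ∃ᶠ t : ℝ in 𝓝[>] 0, T (z + (v - z) * cis (-(τ * t))) = {a, b}) :
    ∀ᶠ t : ℝ in 𝓝[>] 0, T (z + (v - z) * cis (τ * t)) ≠ {a, b} := by
  by_contra hcon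
  have hB : ∃ᶠ t : ℝ in 𝓝[>] 0, T (z + (v - z) * cis (τ * t)) = {a, b} := by
    intro h1
    exact hcon h1
  have key : c ∉ Pal U v ∧ d ∉ Pal U v := by
    rcases hτ with rfl | rfl
    · simp only [one_mul] at hA hB
      exact h.hull_near hz hv hB hA
    · simp only [neg_one_mul, neg_neg] at hA hB
      exact h.hull_near hz hv hA hB
  rcases hcd with h1 | h1
  · exact key.1 h1
  · exact key.2 h1

end Vale.Agent.P032.Six
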