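import Vale.Agent.P032.S5.H80.Anti

/-!
# P032: near a two-pair centre `z` every other point has at most two colours

`DPt T z a b c d` as in `H80/Ray.lean`.  Near `z` a point `w` with `a, b ∈ T w` is `z` itself
(`Irr.dpt_pair`), so `T w` has at most one colour of `{a, b}` and at most one of `{c, d}`
(`Irr.dpt_two`).  In particular the two-pair centres are isolated points of the set of all points
with at least three colours.
-/

open Set Filter Topology Metric

noncomputable section

namespace Vale.Agent.P032.Six

variable {k : ℕ} {U : Fin k → Set ℂ} {T : ℂ → Set (Fin k)}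

/-- a shift of three points of a circle to the same circle is zero -/
theorem shift_zero {z n : ℂ} {t0 s : ℝ} (hs : 0 < s) (hs' : s ≤ 1)
    (h0 : dist (z + cis t0 + n) z = 1) (h1 : dist (z + cis (t0 + s) + n) z = 1)
    (h2 : dist (z + cis (t0 - s) + n) z = 1) : n = 0 := by
  have key : ∀ t : ℝ, dist (z + cis t + n) z = 1 →
      2 * (n.re * Real.cos t + n.im * Real.sin t) + (n.re ^ 2 + n.im ^ 2) = 0 := by
    intro t ht
    have h3 := sq_dist (z + cis t + n) z
    rw [ht] at h3
    simp only [Complex.add_re, Complex.add_im, cis_re, cis_im] at h3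
    have h4 := Real.sin_sq_add_cos_sq t
    nlinarith
  have e0 := key _ h0
  have e1 := key _ h1
  have e2 := key _ h2
  rw [Real.cos_add, Real.sin_add] at e1
  rw [Real.cos_sub, Real.sin_sub] at e2
  have hc : Real.cos s < 1 := by
    rw [← Real.cos_zero]
    exact Real.cos_lt_cos_of_nonneg_of_le_pi le_rfl (by linarith [Real.pi_gt_three]) hs
  have h5 : (n.re * Real.cos t0 + n.im * Real.sin t0) * (1 - Real.cos s) = 0 := by
    nlinarith
  have h6 : n.re * Real.cos t0 + n.im * Real.sin t0 = 0 := by
    rcases mul_eq_zero.1 h5 with h | h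
    · exact h
    · linarith
  have h7 : n.re ^ 2 + n.im ^ 2 = 0 := by linarith
  have h8 : n.re = 0 := by nlinarith [sq_nonneg n.re, sq_nonneg n.im]
  have h9 : n.im = 0 := by nlinarith [sq_nonneg n.re, sq_nonneg n.im]
  exact Complex.ext h8 h9

/-- two colours of an exact arc at a point near the centre: the shifted point is on the circle -/
theorem Irr.shift_on (h : Irr U T) {z p : ℂ} {a b c d : Fin k} (hz : DPt T z a b c d)
    (hp : Arc T z p {a, b}) :
    ∀ᶠ w in 𝓝 z, a ∈ T w → b ∈ T w → dist (p + (w - z)) z = 1 := by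
  have h1 : Tendsto (fun x => p + (x - z)) (𝓝 z) (𝓝 p) := by
    have : Continuous fun x : ℂ => p + (x - z) := by fun_prop
    have h2 := this.tendsto z
    simpa using h2
  have hsd : ∀ᶠ q in 𝓝 p, a ∈ T q → b ∈ T q → dist q z = 1 := by
    rcases h.sides hz hp.1 with hs | hs
    · filter_upwards [hs] with q hq ha hb
      rcases lt_trichotomy (dist q z) 1 with h3 | h3 | h3
      · exact absurd (h.sub _ hb) (hq.2 h3)
      · exact h3
      · exact absurd (h.sub _ ha) (hq.1 h3)
    · filter_upwards [hs] with q hq ha hb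
      rcases lt_trichotomy (dist q z) 1 with h3 | h3 | h3
      · exact absurd (h.sub _ ha) (hq.2 h3)
      · exact h3
      · exact absurd (h.sub _ hb) (hq.1 h3)
  filter_upwards [h1.eventually (h.nhd p), h1.eventually hsd] with w hw1 hw2 ha hb
  rw [hp.mem] at hw1
  have hd : dist (p + (w - z)) w = 1 := by
    rw [← hp.1, dist_eq_norm, dist_eq_norm]
    congr 1
    ring
  have hUa : p + (w - z) ∉ U a := h.mx.notMem (h.sub _ ha) hd
  have hUb : p + (w - z) ∉ U b := h.mx.notMem (h.sub _ hb) hd
  have ha' : a ∈ T (p + (w - z)) := by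
    by_contra hcon
    refine hUb (h.mem_of_single fun i hi => ?_)
    rcases hw1 hi with rfl | h5
    · exact absurd hi hcon
    · exact h5
  have hb' : b ∈ T (p + (w - z)) := by
    by_contra hcon
    refine hUa (h.mem_of_single fun i hi => ?_)
    rcases hw1 hi with rfl | h5
    · rfl
    · rw [mem_singleton_iff] at h5; subst h5; exact absurd hi hcon
  exact hw2 ha' hb'

/-- **the pair at the centre**: near a two-pair centre only the centre has both colours `a, b` -/
theorem Irr.dpt_pair (h : Irr U T) {z : ℂ} {a b c d : Fin k} (hz : DPt T z a b c d) :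
    ∀ᶠ w in 𝓝 z, a ∈ T w → b ∈ T w → w = z := by
  obtain ⟨p, hp⟩ := hz.arc1
  obtain ⟨t0, ht0⟩ := exists_cis (u := p - z) (by rw [← dist_eq_norm]; exact hp.1)
  have hpt : p = z + cis t0 := by rw [← ht0]; ring
  obtain ⟨η, hη, hJ⟩ := (hpt ▸ hp).exists_eta
  have hAt : ∀ t : ℝ, |t - t0| < η → Arc T z (z + cis t) {a, b} := by
    intro t ht
    refine ⟨dist_add_cis z t, ?_⟩
    have hTt := hJ t ht
    filter_upwards [mem_nhdsWithin_of_mem_nhds (h.nhd (z + cis t)), self_mem_nhdsWithin] with q h1 h2
    rw [hTt] at h1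
    have h2 : dist q z = 1 := h2
    have ha : a ∈ T z := by rw [hz.pal]; simp
    have hb : b ∈ T z := by rw [hz.pal]; simp
    have hUa : q ∉ U a := h.mx.notMem (h.sub _ ha) h2
    have hUb : q ∉ U b := h.mx.notMem (h.sub _ hb) h2
    refine Subset.antisymm h1 ?_
    rintro i (rfl | hi)
    · by_contra hcon
      refine hUb (h.mem_of_single fun j hj => ?_)
      rcases h1 hj with rfl | h5
      · exact absurd hj hcon
      · exact h5
    · rw [mem_singleton_iff] at hi
      subst hi
      by_contra hcon
      refine hUa (h.mem_of_single fun j hj => ?_)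
      rcases h1 hj with rfl | h5
      · rfl
      · rw [mem_singleton_iff] at h5; subst h5; exact absurd hj hcon
  set s := min (η / 2) 1 with hs
  have hs0 : 0 < s := by positivity
  have hs1 : s ≤ 1 := min_le_right _ _
  have hsη : s < η := lt_of_le_of_lt (min_le_left _ _) (by linarith)
  have a0 := hAt t0 (by simpa using hη)
  have a1 := hAt (t0 + s) (by rw [add_sub_cancel_left, abs_of_pos hs0]; exact hsη)
  have a2 := hAt (t0 - s) (by
    rw [show t0 - s - t0 = -s by ring, abs_neg, abs_of_pos hs0]; exact hsη)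
  filter_upwards [h.shift_on hz a0, h.shift_on hz a1, h.shift_on hz a2] with w h0 h1 h2 ha hb
  have := shift_zero hs0 hs1 (h0 ha hb) (h1 ha hb) (h2 ha hb)
  exact sub_eq_zero.1 this

/-- **two-pair centres are isolated**: every other point near `z` has at most two colours, at most
one of `{a, b}` and at most one of `{c, d}` -/
theorem Irr.dpt_two (h : Irr U T) {z : ℂ} {a b c d : Fin k} (hz : DPt T z a b c d) :
    ∀ᶠ w in 𝓝 z, w ≠ z → (a ∉ T w ∨ b ∉ T w) ∧ (c ∉ T w ∨ d ∉ T w) ∧ (T w).ncard ≤ 2 := by
  filter_upwards [h.dpt_pair hz, h.dpt_pair hz.swap, h.nhd z] with w h1 h2 h3 hne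
  have e1 : a ∉ T w ∨ b ∉ T w := by
    by_contra hcon
    push Not at hcon
    exact hne (h1 hcon.1 hcon.2)
  have e2 : c ∉ T w ∨ d ∉ T w := by
    by_contra hcon
    push Not at hcon
    exact hne (h2 hcon.1 hcon.2)
  refine ⟨e1, e2, ?_⟩
  rw [hz.pal] at h3
  have key : ∃ i j : Fin k, T w ⊆ {i, j} := by
    rcases e1 with e1 | e1 <;> rcases e2 with e2 | e2
    · refine ⟨b, d, fun i hi => ?_⟩
      rcases h3 hi with rfl | rfl | rfl | h4
      · exact absurd hi e1
      · simp
      · exact absurd hi e2
      · right; exact h4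
    · refine ⟨b, c, fun i hi => ?_⟩
      rcases h3 hi with rfl | rfl | rfl | h4
      · exact absurd hi e1
      · simp
      · simp
      · rw [mem_singleton_iff] at h4; subst h4; exact absurd hi e2
    · refine ⟨a, d, fun i hi => ?_⟩
      rcases h3 hi with rfl | rfl | rfl | h4
      · simp
      · exact absurd hi e1
      · exact absurd hi e2
      · right; exact h4
    · refine ⟨a, c, fun i hi => ?_⟩
      rcases h3 hi with rfl | rfl | rfl | h4
      · simp
      · exact absurd hi e1
      · simp
      · rw [mem_singleton_iff] at h4; subst h4; exact absurd hi e2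
  obtain ⟨i, j, hij⟩ := key
  refine (Set.ncard_le_ncard hij (Set.toFinite _)).trans ((Set.ncard_insert_le _ _).trans ?_)
  rw [Set.ncard_singleton]

/-- the points with at least three colours do not accumulate at a two-pair centre -/
theorem Irr.dpt_iso (h : Irr U T) {z : ℂ} {a b c d : Fin k} (hz : DPt T z a b c d) :
    ∀ᶠ w in 𝓝[≠] z, (T w).ncard ≤ 2 := by
  rw [eventually_nhdsWithin_iff]
  filter_upwards [h.dpt_two hz] with w hw hne
  exact (hw hne).2.2

end Vale.Agent.P032.Six
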